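import Vale.Agent.P207.H442.Ten2
import Vale.Agent.P207.H442.Int

/-!
# P207 / Kat: the quadratic form `Q_y(k)` of the second order expansion

`C : FrCalc n A` (frame calculus of the locally symmetric metric `g₀`), `I` the integral,
`k i j` the components of a symmetric 2-tensor, `y i` a test field along the unit tangent bundle,
`v = e₀`. Sign of `C.R`: `R i j j i` is the sectional curvature, so `K_ij = - R i 0 0 j`.
-/

noncomputable section

namespace Vale.Agent.P207.Kat

open Vale.Agent.P207.H442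

variable {n : ℕ} [NeZero n] {A : Type*} [CommRing A] [Algebra ℝ A]

/-- the field `Z = (∇_v k)(v, ·) - (1/2) grad k(v, v)` -/
def Zf (C : FrCalc n A) (k : Fin n → Fin n → A) (i : Fin n) : A :=
  C.H 0 (k 0 i) - (1 / 2 : ℝ) • C.H i (k 0 0)

/-- the Jacobi operator `K_ij = - R i 0 0 j` -/
def Kf (C : FrCalc n A) (i j : Fin n) : A := - C.R i 0 0 j

/-- the integrand `2 ⟨Z, y⟩ - |H₀ y|² - ⟨K y, y⟩ + (1/4) k₀₀²` -/
def Qint (C : FrCalc n A) (k : Fin n → Fin n → A) (y : Fin n → A) : A :=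
  (2 : ℝ) • (∑ i, Zf C k i * y i) - (∑ i, C.H 0 (y i) * C.H 0 (y i))
    - (∑ i, ∑ j, Kf C i j * y i * y j) + (1 / 4 : ℝ) • (k 0 0 * k 0 0)

/-- the form `Q_y(k)` -/
def Qf (C : FrCalc n A) (I : A →ₗ[ℝ] ℝ) (k : Fin n → Fin n → A) (y : Fin n → A) : ℝ :=
  n * I (Qint C k y) + (1 / 4) * I ((∑ i, k i i) * ∑ i, k i i)
    - (1 / 2) * I (∑ i, ∑ j, k i j * k i j)

/-- the divergence of a 2-tensor -/
def divf (C : FrCalc n A) (k : Fin n → Fin n → A) (j : Fin n) : A := ∑ i, C.H i (k i j)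

/-- `L_W g₀` -/
def Lf (C : FrCalc n A) (w : Fin n → A) (i j : Fin n) : A := C.H i (w j) + C.H j (w i)

/-- the part of a vector field perpendicular to `v = e₀` -/
def perp (w : Fin n → A) (i : Fin n) : A := if i = 0 then 0 else w i

end Vale.Agent.P207.Kat
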